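import Mathlib
import Vale.Agent.Lib.P037.Defs

/-!
# P037: rectangular patterns (definitions used in the statement on blow-ups)
-/

namespace Vale.Agent.Lib.P037B

open Vale.Agent.Lib.P037

open Classical in
/-- The ordered copies of the rectangular `k × l` pattern `H` in the `n × n` binary matrix `A`:
pairs of strictly increasing row and column index maps along which `A` agrees with `H`. -/
noncomputable def copiesR {k l n : ℕ} (H : Fin k → Fin l → Bool) (A : Fin n → Fin n → Bool) :
    Finset ((Fin k → Fin n) × (Fin l → Fin n)) :=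
  Finset.univ.filter fun p =>
    StrictMono p.1 ∧ StrictMono p.2 ∧ ∀ i j, A (p.1 i) (p.2 j) = H i j

/-- The polynomial removal property for a rectangular `k × l` pattern `H`: there are constants
`c > 0` and `C > 0` such that every `n × n` binary matrix `A` that differs from every `H`-free
matrix in at least `ε n ^ 2` entries has at least `c ε ^ C n ^ (k + l)` ordered copies of `H`.
For `k = l` this is the property `PolyRemoval` of question Q1. -/
def PolyRemovalR {k l : ℕ} (H : Fin k → Fin l → Bool) : Prop :=
  ∃ c : ℝ, 0 < c ∧ ∃ C : ℕ, 0 < C ∧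
    ∀ (n : ℕ) (ε : ℝ) (A : Fin n → Fin n → Bool), 0 < ε → ε < 1 →
      (∀ B : Fin n → Fin n → Bool, copiesR H B = ∅ → ε * (n : ℝ) ^ 2 ≤ (hamming A B : ℝ)) →
      c * ε ^ C * (n : ℝ) ^ (k + l) ≤ ((copiesR H A).card : ℝ)

end Vale.Agent.Lib.P037B
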