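import Mathlib
import Vale.Agent.Lib.P037.Defs
import Vale.Agent.Lib.P037B.Defs

/-!
# P037: polynomial removal is preserved by blow-ups of the pattern
-/

namespace Vale.Agent.Lib.P037B

open Vale.Agent.Lib.P037

theorem mem_copiesR {k l n : ℕ} {H : Fin k → Fin l → Bool} {A : Fin n → Fin n → Bool}
    {p : (Fin k → Fin n) × (Fin l → Fin n)} :
    p ∈ copiesR H A ↔ StrictMono p.1 ∧ StrictMono p.2 ∧ ∀ i j, A (p.1 i) (p.2 j) = H i j := by
  unfold copiesR
  simp

theorem square_iff {k : ℕ} (H : Fin k → Fin k → Bool) : PolyRemovalR H ↔ PolyRemoval H := by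
  unfold PolyRemovalR PolyRemoval
  have e : k + k = 2 * k := by ring
  rw [e]
  rfl

/-- collapse the two indices `i0`, `i0 + 1` -/
def dn {m : ℕ} (i0 : Fin m) (i : Fin (m + 1)) : Fin m :=
  ⟨if i.val ≤ i0.val then i.val else i.val - 1, by
    have h1 := i.2
    have h2 := i0.2
    split_ifs <;> omega⟩

/-- skip the index `i0 + 1` -/
def up {m : ℕ} (i0 : Fin m) (j : Fin m) : Fin (m + 1) :=
  ⟨if j.val ≤ i0.val then j.val else j.val + 1, by
    have h1 := j.2
    split_ifs <;> omega⟩

/-- skip the index `i0` -/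
def up' {m : ℕ} (i0 : Fin m) (j : Fin m) : Fin (m + 1) :=
  ⟨if j.val < i0.val then j.val else j.val + 1, by
    have h1 := j.2
    split_ifs <;> omega⟩

theorem dn_up {m : ℕ} (i0 j : Fin m) : dn i0 (up i0 j) = j := by
  apply Fin.ext
  simp only [dn, up]
  split_ifs <;> omega

theorem up_strictMono {m : ℕ} (i0 : Fin m) : StrictMono (up i0) := by
  intro a b hab
  have : a.val < b.val := hab
  show (up i0 a).val < (up i0 b).val
  simp only [up]
  split_ifs <;> omega

theorem dn_mono {m : ℕ} (i0 : Fin m) : Monotone (dn i0) := by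
  intro a b hab
  have : a.val ≤ b.val := hab
  show (dn i0 a).val ≤ (dn i0 b).val
  simp only [dn]
  split_ifs <;> omega

section count

variable {m l n : ℕ} (H : Fin m → Fin l → Bool) (i0 : Fin m) (A : Fin n → Fin n → Bool)

/-- the pattern with row `i0` duplicated -/
def dupRow : Fin (m + 1) → Fin l → Bool := fun i j => H (dn i0 i) j

theorem free_dup (B : Fin n → Fin n → Bool) (h : copiesR H B = ∅) :
    copiesR (dupRow H i0) B = ∅ := by
  rw [Finset.eq_empty_iff_forall_notMem] at h ⊢
  intro p hp
  rw [mem_copiesR] at hp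
  apply h (fun i => p.1 (up i0 i), p.2)
  rw [mem_copiesR]
  refine ⟨hp.1.comp (up_strictMono i0), hp.2.1, ?_⟩
  intro i j
  have := hp.2.2 (up i0 i) j
  simp only [dupRow, dn_up] at this
  exact this

/-- glue two copies that differ only in row `i0` -/
def glue (x y : Fin m → Fin n) : Fin (m + 1) → Fin n :=
  fun i => if i.val ≤ i0.val then x (dn i0 i) else y (dn i0 i)

theorem glue_up (x y : Fin m → Fin n) (hxy : ∀ i, i ≠ i0 → x i = y i) (i : Fin m) :
    glue i0 x y (up i0 i) = x i := by
  unfold glue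
  rw [dn_up]
  by_cases h : i.val ≤ i0.val
  · have : (up i0 i).val ≤ i0.val := by
      simp only [up]
      split_ifs
      omega
    rw [if_pos this]
  · have : ¬ (up i0 i).val ≤ i0.val := by
      simp only [up]
      split_ifs
      omega
    rw [if_neg this]
    refine (hxy i ?_).symm
    intro h2
    rw [h2] at h
    omega

theorem dn_up' (i : Fin m) : dn i0 (up' i0 i) = i := by
  apply Fin.ext
  simp only [dn, up']
  split_ifs <;> omega

theorem glue_up' (x y : Fin m → Fin n) (hxy : ∀ i, i ≠ i0 → x i = y i) (i : Fin m) :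
    glue i0 x y (up' i0 i) = y i := by
  unfold glue
  rw [dn_up']
  by_cases h : i.val < i0.val
  · have : (up' i0 i).val ≤ i0.val := by
      simp only [up']
      split_ifs
      omega
    rw [if_pos this]
    refine hxy i ?_
    intro h2
    rw [h2] at h
    omega
  · have : ¬ (up' i0 i).val ≤ i0.val := by
      simp only [up']
      split_ifs
      omega
    rw [if_neg this]

theorem glue_strictMono (x y : Fin m → Fin n) (hx : StrictMono x) (hy : StrictMono y)
    (hlt : x i0 < y i0) : StrictMono (glue i0 x y) := by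
  rw [Fin.strictMono_iff_lt_succ]
  intro i
  unfold glue
  have hi := i.2
  have h0 := i0.2
  simp only [Fin.val_castSucc, Fin.val_succ]
  rcases lt_trichotomy i.val i0.val with h | h | h
  · rw [if_pos (by omega), if_pos (by omega)]
    apply hx
    show (dn i0 i.castSucc).val < (dn i0 i.succ).val
    simp only [dn, Fin.val_castSucc, Fin.val_succ]
    split_ifs <;> omega
  · rw [if_pos (by omega), if_neg (by omega)]
    have e1 : dn i0 i.castSucc = i0 := by
      apply Fin.ext
      simp only [dn, Fin.val_castSucc]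
      split_ifs <;> omega
    have e2 : dn i0 i.succ = i0 := by
      apply Fin.ext
      simp only [dn, Fin.val_succ]
      split_ifs <;> omega
    rw [e1, e2]
    exact hlt
  · rw [if_neg (by omega), if_neg (by omega)]
    apply hy
    show (dn i0 i.castSucc).val < (dn i0 i.succ).val
    simp only [dn, Fin.val_castSucc, Fin.val_succ]
    split_ifs <;> omega

/-- the context of a copy: everything except the row index number `i0` -/
def ctx (p : (Fin m → Fin n) × (Fin l → Fin n)) :
    ({i : Fin m // i ≠ i0} → Fin n) × (Fin l → Fin n) :=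
  (fun i => p.1 i.1, p.2)

theorem ctx_eq_iff (x y : (Fin m → Fin n) × (Fin l → Fin n)) :
    ctx i0 x = ctx i0 y ↔ (∀ i, i ≠ i0 → x.1 i = y.1 i) ∧ x.2 = y.2 := by
  unfold ctx
  rw [Prod.mk.injEq]
  constructor
  · rintro ⟨h1, h2⟩
    exact ⟨fun i hi => congrFun h1 ⟨i, hi⟩, h2⟩
  · rintro ⟨h1, h2⟩
    exact ⟨funext fun i => h1 i.1 i.2, h2⟩

theorem card_ctx : Fintype.card (({i : Fin m // i ≠ i0} → Fin n) × (Fin l → Fin n))
    = n ^ (m - 1) * n ^ l := by
  rw [Fintype.card_prod, Fintype.card_fun, Fintype.card_fun, Fintype.card_fin, Fintype.card_fin,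
    Fintype.card_subtype_compl, Fintype.card_fin, Fintype.card_subtype_eq]

open Classical in
/-- the counting inequality -/
theorem count_ineq :
    (copiesR H A).card ^ 2 ≤ (n ^ (m - 1) * n ^ l) *
      ((copiesR H A).card + 2 * (copiesR (dupRow H i0) A).card) := by
  set S := copiesR H A with hS
  set S' := copiesR (dupRow H i0) A with hS'
  have h1 : S.card = ∑ u, (S.filter (fun x => ctx i0 x = u)).card :=
    Finset.card_eq_sum_card_fiberwise (fun x _ => Finset.mem_coe.mpr (Finset.mem_univ _))
  have h2 : (∑ u, (S.filter (fun x => ctx i0 x = u)).card) ^ 2 ≤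
      (Finset.univ : Finset (({i : Fin m // i ≠ i0} → Fin n) × (Fin l → Fin n))).card *
        ∑ u, (S.filter (fun x => ctx i0 x = u)).card ^ 2 :=
    sq_sum_le_card_mul_sum_sq
  rw [Finset.card_univ, card_ctx] at h2
  rw [h1]
  refine h2.trans (Nat.mul_le_mul_left _ ?_)
  rw [← h1]
  -- the pairs with equal context
  set P := (S ×ˢ S).filter (fun xy => ctx i0 xy.1 = ctx i0 xy.2) with hP
  have h3 : ∑ u, (S.filter (fun x => ctx i0 x = u)).card ^ 2 = P.card := by
    have h4 : P.card = ∑ u, (P.filter (fun xy => ctx i0 xy.1 = u)).card :=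
      Finset.card_eq_sum_card_fiberwise (fun x _ => Finset.mem_coe.mpr (Finset.mem_univ _))
    rw [h4]
    apply Finset.sum_congr rfl
    intro u _
    rw [sq, ← Finset.card_product]
    congr 1
    ext xy
    simp only [hP, Finset.mem_product, Finset.mem_filter]
    constructor
    · rintro ⟨⟨h5, h6⟩, h7, h8⟩
      exact ⟨⟨⟨h5, h7⟩, h6.trans h8.symm⟩, h6⟩
    · rintro ⟨⟨⟨h5, h7⟩, h6⟩, h8⟩
      exact ⟨⟨h5, h8⟩, h7, h6 ▸ h8⟩
  rw [h3]
  -- split according to the row number `i0`
  have hsplit : P ⊆ P.filter (fun xy => xy.1.1 i0 = xy.2.1 i0) ∪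
      (P.filter (fun xy => xy.1.1 i0 < xy.2.1 i0) ∪ P.filter (fun xy => xy.2.1 i0 < xy.1.1 i0)) := by
    intro xy hxy
    simp only [Finset.mem_union, Finset.mem_filter]
    rcases lt_trichotomy (xy.1.1 i0) (xy.2.1 i0) with h | h | h
    · exact Or.inr (Or.inl ⟨hxy, h⟩)
    · exact Or.inl ⟨hxy, h⟩
    · exact Or.inr (Or.inr ⟨hxy, h⟩)
  have heq : (P.filter (fun xy => xy.1.1 i0 = xy.2.1 i0)).card ≤ S.card := by
    apply Finset.card_le_card_of_injOn (fun xy => xy.1)
    · intro xy hxy
      have := (Finset.mem_filter.mp (Finset.mem_coe.mp hxy)).1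
      exact Finset.mem_coe.mpr (Finset.mem_product.mp (Finset.mem_filter.mp this).1).1
    · intro a ha b hb hab
      have key : ∀ xy ∈ P.filter (fun xy => xy.1.1 i0 = xy.2.1 i0), xy.2 = xy.1 := by
        intro xy hxy
        obtain ⟨h5, h6⟩ := Finset.mem_filter.mp hxy
        have h7 := (ctx_eq_iff i0 _ _).mp (Finset.mem_filter.mp h5).2
        apply Prod.ext
        · funext i
          by_cases hi : i = i0
          · rw [hi]; exact h6.symm
          · exact (h7.1 i hi).symm
        · exact h7.2.symm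
      have ha' := key a (Finset.mem_coe.mp ha)
      have hb' := key b (Finset.mem_coe.mp hb)
      simp only at hab
      apply Prod.ext hab
      rw [ha', hb', hab]
  have hlt : (P.filter (fun xy => xy.1.1 i0 < xy.2.1 i0)).card ≤ S'.card := by
    apply Finset.card_le_card_of_injOn (fun xy => (glue i0 xy.1.1 xy.2.1, xy.1.2))
    · intro xy hxy
      obtain ⟨h5, h6⟩ := Finset.mem_filter.mp (Finset.mem_coe.mp hxy)
      obtain ⟨h7, h8⟩ := Finset.mem_filter.mp h5
      obtain ⟨hx, hy⟩ := Finset.mem_product.mp h7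
      rw [hS, mem_copiesR] at hx hy
      have h9 := (ctx_eq_iff i0 _ _).mp h8
      apply Finset.mem_coe.mpr
      rw [hS', mem_copiesR]
      refine ⟨glue_strictMono i0 _ _ hx.1 hy.1 h6, hx.2.1, ?_⟩
      intro i j
      simp only [glue, dupRow]
      split_ifs
      · exact hx.2.2 _ _
      · rw [h9.2]
        exact hy.2.2 _ _
    · intro a ha b hb hab
      obtain ⟨h5, _⟩ := Finset.mem_filter.mp (Finset.mem_coe.mp ha)
      obtain ⟨h5', _⟩ := Finset.mem_filter.mp (Finset.mem_coe.mp hb)
      have h9 := (ctx_eq_iff i0 _ _).mp (Finset.mem_filter.mp h5).2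
      have h9' := (ctx_eq_iff i0 _ _).mp (Finset.mem_filter.mp h5').2
      simp only [Prod.mk.injEq] at hab
      have e1 : a.1.1 = b.1.1 := by
        funext i
        rw [← glue_up i0 a.1.1 a.2.1 h9.1 i, ← glue_up i0 b.1.1 b.2.1 h9'.1 i, hab.1]
      have e2 : a.2.1 = b.2.1 := by
        funext i
        rw [← glue_up' i0 a.1.1 a.2.1 h9.1 i, ← glue_up' i0 b.1.1 b.2.1 h9'.1 i, hab.1]
      apply Prod.ext
      · exact Prod.ext e1 hab.2
      · apply Prod.ext e2
        rw [← h9.2, ← h9'.2]
        exact hab.2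
  have hgt : (P.filter (fun xy => xy.2.1 i0 < xy.1.1 i0)).card ≤
      (P.filter (fun xy => xy.1.1 i0 < xy.2.1 i0)).card := by
    apply Finset.card_le_card_of_injOn (fun xy => (xy.2, xy.1))
    · intro xy hxy
      obtain ⟨h5, h6⟩ := Finset.mem_filter.mp (Finset.mem_coe.mp hxy)
      obtain ⟨h7, h8⟩ := Finset.mem_filter.mp h5
      obtain ⟨hx, hy⟩ := Finset.mem_product.mp h7
      apply Finset.mem_coe.mpr
      exact Finset.mem_filter.mpr ⟨Finset.mem_filter.mpr ⟨Finset.mem_product.mpr ⟨hy, hx⟩, h8.symm⟩, h6⟩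
    · intro a _ b _ hab
      simp only [Prod.mk.injEq] at hab
      exact Prod.ext hab.2 hab.1
  have := (Finset.card_le_card hsplit).trans ((Finset.card_union_le _ _).trans
    (Nat.add_le_add_left (Finset.card_union_le _ _) _))
  omega

end count

theorem hamming_self' {n : ℕ} (A : Fin n → Fin n → Bool) : hamming A A = 0 := by
  unfold hamming
  simp

/-- real form of the counting step -/
theorem real_step (N N' U x g : ℝ) (hU : 0 < U) (hx : 0 < x) (hg : 0 < g)
    (h1 : N ^ 2 ≤ U * (N + 2 * N')) (h2 : g * (U * x) ≤ N) (h3 : 2 ≤ g * x) :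
    g ^ 2 / 4 * (U * x * x) ≤ N' := by
  have hX : 2 * U ≤ g * (U * x) := by nlinarith
  have hN : 2 * U ≤ N := hX.trans h2
  have hN0 : 0 < N := by linarith
  have h4 : N * (N / 2) ≤ 2 * U * N' := by nlinarith
  have h5 : (g * (U * x)) ^ 2 ≤ N ^ 2 := by
    apply pow_le_pow_left₀ _ h2
    positivity
  have h6 : (g * (U * x)) ^ 2 / 2 ≤ 2 * U * N' := by nlinarith
  have h7 : U * (g ^ 2 / 4 * (U * x * x)) ≤ U * N' := by nlinarith
  exact le_of_mul_le_mul_left h7 hU

/-- duplicating a row preserves polynomial removal -/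
theorem PolyRemovalR.dupRow {m l : ℕ} (H : Fin m → Fin l → Bool) (i0 : Fin m)
    (h : PolyRemovalR H) : PolyRemovalR (dupRow H i0) := by
  obtain ⟨c, hc, C, hC, hH⟩ := h
  have hm : 1 ≤ m := by
    have := i0.2
    omega
  refine ⟨min (c ^ 2 / 4) ((c / 2) ^ (m + l + 1)), ?_, C * (m + l + 1), ?_, ?_⟩
  · apply lt_min <;> positivity
  · positivity
  intro n ε A h0 h1 hfar
  set c' := min (c ^ 2 / 4) ((c / 2) ^ (m + l + 1)) with hc'
  have hc'0 : 0 < c' := by
    rw [hc']
    apply lt_min <;> positivity
  have e1 : m + 1 + l = m + l + 1 := by ring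
  rw [e1]
  rcases Nat.eq_zero_or_pos n with hn | hn
  · subst hn
    simp
  have hnR : (0 : ℝ) < (n : ℝ) := by exact_mod_cast hn
  have hfar' : ∀ B : Fin n → Fin n → Bool, copiesR H B = ∅ →
      ε * (n : ℝ) ^ 2 ≤ (hamming A B : ℝ) := fun B hB => hfar B (free_dup H i0 B hB)
  have hN := hH n ε A h0 h1 hfar'
  set g := c * ε ^ C with hg
  have hg0 : 0 < g := by positivity
  by_cases hbig : 2 ≤ g * n
  · -- many copies
    have hcount := count_ineq H i0 A
    have hcountR : ((copiesR H A).card : ℝ) ^ 2 ≤ ((n : ℝ) ^ (m - 1) * (n : ℝ) ^ l) *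
        (((copiesR H A).card : ℝ) + 2 * ((copiesR (Vale.Agent.Lib.P037B.dupRow H i0) A).card : ℝ)) := by
      exact_mod_cast hcount
    have hUx : (n : ℝ) ^ (m - 1) * (n : ℝ) ^ l * n = (n : ℝ) ^ (m + l) := by
      have : m + l = (m - 1) + l + 1 := by omega
      rw [this, pow_succ, pow_add]
    have hstep := real_step _ _ ((n : ℝ) ^ (m - 1) * (n : ℝ) ^ l) n g (by positivity) hnR hg0
      hcountR (by rw [hUx]; exact hN) hbig
    rw [hUx] at hstep
    refine le_trans ?_ hstep
    have h2 : ε ^ (C * (m + l + 1)) ≤ (ε ^ C) ^ 2 := by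
      rw [← pow_mul]
      apply pow_le_pow_of_le_one h0.le h1.le
      nlinarith
    have h3 : c' ≤ c ^ 2 / 4 := min_le_left _ _
    have h4 : c' * ε ^ (C * (m + l + 1)) ≤ g ^ 2 / 4 := by
      calc c' * ε ^ (C * (m + l + 1)) ≤ c ^ 2 / 4 * (ε ^ C) ^ 2 :=
            mul_le_mul h3 h2 (by positivity) (by positivity)
        _ = g ^ 2 / 4 := by rw [hg]; ring
    calc c' * ε ^ (C * (m + l + 1)) * (n : ℝ) ^ (m + l + 1)
        ≤ g ^ 2 / 4 * (n : ℝ) ^ (m + l + 1) :=
          mul_le_mul_of_nonneg_right h4 (by positivity)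
      _ = g ^ 2 / 4 * ((n : ℝ) ^ (m + l) * n) := by rw [pow_succ (n : ℝ) (m + l)]
  · -- small matrices: one copy is enough
    simp only [not_le] at hbig
    have hone : 1 ≤ (copiesR (Vale.Agent.Lib.P037B.dupRow H i0) A).card := by
      rw [Nat.one_le_iff_ne_zero]
      intro hz
      have := hfar A (Finset.card_eq_zero.mp hz)
      rw [hamming_self'] at this
      have h5 : 0 < ε * (n : ℝ) ^ 2 := by positivity
      simp only [Nat.cast_zero] at this
      linarith
    have honeR : (1 : ℝ) ≤ ((copiesR (Vale.Agent.Lib.P037B.dupRow H i0) A).card : ℝ) := by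
      exact_mod_cast hone
    refine le_trans ?_ honeR
    have h3 : c' ≤ (c / 2) ^ (m + l + 1) := min_le_right _ _
    calc c' * ε ^ (C * (m + l + 1)) * (n : ℝ) ^ (m + l + 1)
        ≤ (c / 2) ^ (m + l + 1) * ε ^ (C * (m + l + 1)) * (n : ℝ) ^ (m + l + 1) := by
          apply mul_le_mul_of_nonneg_right _ (by positivity)
          exact mul_le_mul_of_nonneg_right h3 (by positivity)
      _ = (g * n / 2) ^ (m + l + 1) := by
          rw [hg, pow_mul, ← mul_pow, ← mul_pow]
          congr 1
          ring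
      _ ≤ 1 := by
          apply pow_le_one₀ (by positivity)
          linarith

/-- transposition -/
theorem copiesR_transpose_le {k l n : ℕ} (H : Fin k → Fin l → Bool) (A : Fin n → Fin n → Bool) :
    (copiesR H A).card ≤ (copiesR (fun j i => H i j) (fun c r => A r c)).card := by
  apply Finset.card_le_card_of_injOn (fun p => (p.2, p.1))
  · intro p hp
    have hp' := mem_copiesR.mp (Finset.mem_coe.mp hp)
    apply Finset.mem_coe.mpr
    rw [mem_copiesR]
    exact ⟨hp'.2.1, hp'.1, fun i j => hp'.2.2 j i⟩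
  · intro a _ b _ hab
    simp only [Prod.mk.injEq] at hab
    exact Prod.ext hab.2 hab.1

theorem hamming_transpose_le' {n : ℕ} (A B : Fin n → Fin n → Bool) :
    hamming A B ≤ hamming (fun c r => A r c) (fun c r => B r c) := by
  unfold hamming
  apply Finset.card_le_card_of_injOn (fun p => (p.2, p.1))
  · intro p hp
    have hp' := (Finset.mem_filter.mp (Finset.mem_coe.mp hp)).2
    apply Finset.mem_coe.mpr
    exact Finset.mem_filter.mpr ⟨Finset.mem_univ _, hp'⟩
  · intro a _ b _ hab
    simp only [Prod.mk.injEq] at hab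
    exact Prod.ext hab.2 hab.1

theorem PolyRemovalR.transpose {k l : ℕ} (H : Fin k → Fin l → Bool) (h : PolyRemovalR H) :
    PolyRemovalR (fun j i => H i j) := by
  obtain ⟨c, hc, C, hC, hH⟩ := h
  refine ⟨c, hc, C, hC, ?_⟩
  intro n ε A h0 h1 hfar
  have h2 := hH n ε (fun c r => A r c) h0 h1 (by
    intro B hB
    have h3 : copiesR (fun j i => H i j) (fun c r => B r c) = ∅ := by
      rw [← Finset.card_eq_zero] at hB ⊢
      have h9 : (copiesR (fun j i => H i j) (fun c r => B r c)).card ≤ (copiesR H B).card :=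
        copiesR_transpose_le (fun j i => H i j) (fun c r => B r c)
      omega
    have h4 := hfar _ h3
    have h5 := hamming_transpose_le' A (fun c r => B r c)
    have h6 : (hamming A (fun c r => B r c) : ℝ) ≤ (hamming (fun c r => A r c) B : ℝ) := by
      exact_mod_cast h5
    linarith)
  have h7 := copiesR_transpose_le H (fun c r => A r c)
  have h8 : ((copiesR H (fun c r => A r c)).card : ℝ) ≤
      ((copiesR (fun j i => H i j) A).card : ℝ) := by exact_mod_cast h7
  rw [add_comm l k]
  linarith

/-- blow-up of the rows along a monotone surjection -/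
theorem PolyRemovalR.blowRows {l : ℕ} : ∀ (d m : ℕ) (H : Fin m → Fin l → Bool)
    (φ : Fin (m + d) → Fin m), Monotone φ → Function.Surjective φ → PolyRemovalR H →
    PolyRemovalR (fun i j => H (φ i) j) := by
  intro d
  induction d with
  | zero =>
    intro m H φ hφ hs h
    have hinj : Function.Injective φ := Finite.injective_iff_surjective.mpr hs
    have hst : StrictMono φ := hφ.strictMono_of_injective hinj
    have : φ = id := by
      apply (StrictMono.range_inj hst strictMono_id).mp
      rw [hs.range_eq, Set.range_id]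
    rw [this]
    exact h
  | succ d ih =>
    intro m H φ hφ hs h
    -- two consecutive indices with the same image
    have hex : ∃ i0 : Fin (m + d), φ i0.castSucc = φ i0.succ := by
      by_contra hcon
      simp only [not_exists] at hcon
      have hst : StrictMono φ := by
        rw [Fin.strictMono_iff_lt_succ]
        intro i
        exact lt_of_le_of_ne (hφ (Fin.castSucc_lt_succ (i := i)).le) (hcon i)
      have := Fintype.card_le_of_injective φ hst.injective
      simp only [Fintype.card_fin] at this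
      omega
    obtain ⟨i0, hi0⟩ := hex
    have hfac : ∀ a, φ (up i0 (dn i0 a)) = φ a := by
      intro a
      by_cases h1 : a.val = i0.val + 1
      · have e1 : a = i0.succ := Fin.ext (by simp [h1])
        have e2 : up i0 (dn i0 a) = i0.castSucc := by
          apply Fin.ext
          simp only [up, dn, Fin.val_castSucc]
          split_ifs <;> omega
        rw [e2, e1, hi0]
      · have e2 : up i0 (dn i0 a) = a := by
          apply Fin.ext
          simp only [up, dn]
          split_ifs <;> omega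
        rw [e2]
    have h1 := ih m H (fun j => φ (up i0 j)) (hφ.comp (up_strictMono i0).monotone) (by
      intro b
      obtain ⟨a, ha⟩ := hs b
      exact ⟨dn i0 a, (hfac a).trans ha⟩) h
    have h2 := PolyRemovalR.dupRow _ i0 h1
    have e : Vale.Agent.Lib.P037B.dupRow (fun i j => H (φ (up i0 i)) j) i0 =
        fun i j => H (φ i) j := by
      funext i j
      simp only [Vale.Agent.Lib.P037B.dupRow]
      rw [hfac]
    exact e ▸ h2

theorem PolyRemovalR.blowRows' {l m m' : ℕ} (H : Fin m → Fin l → Bool)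
    (φ : Fin m' → Fin m) (hφ : Monotone φ) (hs : Function.Surjective φ) (h : PolyRemovalR H) :
    PolyRemovalR (fun i j => H (φ i) j) := by
  have hle : m ≤ m' := by
    have := Fintype.card_le_of_surjective φ hs
    simpa using this
  obtain ⟨d, rfl⟩ := Nat.exists_eq_add_of_le hle
  exact PolyRemovalR.blowRows d m H φ hφ hs h

/-- **blow-up closure** -/
theorem PolyRemovalR.blowup {k l k' l' : ℕ} (H : Fin k → Fin l → Bool)
    (φ : Fin k' → Fin k) (ψ : Fin l' → Fin l) (hφ : Monotone φ) (hφs : Function.Surjective φ)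
    (hψ : Monotone ψ) (hψs : Function.Surjective ψ) (h : PolyRemovalR H) :
    PolyRemovalR (fun i j => H (φ i) (ψ j)) := by
  have h1 := PolyRemovalR.blowRows' H φ hφ hφs h
  have h2 := PolyRemovalR.transpose _ h1
  have h3 := PolyRemovalR.blowRows' _ ψ hψ hψs h2
  exact PolyRemovalR.transpose _ h3

end Vale.Agent.Lib.P037B
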